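import Vale.Agent.Lib.P335.Gr.KMain

/-!
# P335: the switch chain mixes in time `n ^ 6` on every graphical degree vector

Let `n ≥ 4` and let `d : Fin n → ℕ` be any degree vector with at least one realization (a simple
graph on `Fin n` with degree `d v` at every vertex `v`).  Then

* the switch graph on the realizations of `d` has spectral gap at least `2`: for every mean-zero
  `u`, the sum of `u ^ 2` is at most one quarter of the sum, over ordered pairs of realizations
  joined by a switch, of the squared difference of `u`;
* the lazy switch chain of the problem is within total variation distance `1/4` of uniform, from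
  every start, at every time `t ≥ n ^ 6`; in particular `tmix d ≤ n ^ 6`.

So the mixing time of the switch chain is at most the polynomial `n ^ 6`, uniformly over all
graphical degree vectors.

Proof.  For a pair `p` of vertices let `E_p` be the average over the graphs with the same degrees
that agree off the cells touching `p`, and `P_p = 1 - E_p`, `H = ∑ P_p`.  Then `H² ≥ 2 H`:
the pairs inside a vertex triple are handled by the three-row inequality for 0/1 matrices with
given margins (through an encoding with one virtual column), and for disjoint pairs `p`, `q` the
anticommutator of `P_p`, `P_q` is bounded below through the switch block `p × q` and a sharp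
inequality on the Johnson set formed by each fibre of `E_p`.  The switch graph is connected, so
`H ≥ 2 (1 - E)`, and the pair energies are dominated by the switch energy.
-/

namespace Vale.Agent.Results.P335.AllDegreeSequences

open Vale.Agent.Lib.P335
open scoped Classical

theorem result :
    ∀ (n : ℕ), 4 ≤ n → ∀ d : Fin n → ℕ, (realizations d).Nonempty →
      (∀ u : SimpleGraph (Fin n) → ℝ, ∑ H ∈ realizations d, u H = 0 →
        ∑ H ∈ realizations d, (u H) ^ 2 ≤
          (1 / 4) * ∑ G ∈ realizations d, ∑ H ∈ realizations d,
            if IsSwitch G H then (u G - u H) ^ 2 else 0) ∧
      (∀ t : ℕ, n ^ 6 ≤ t → IsMixedAt d t) ∧ tmix d ≤ n ^ 6 := by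
  intro n hn d hne
  refine ⟨fun u hu => ?_, Gr.ktv_mixed hn d hne⟩
  have h := Gr.ktv_energy d u hu
  unfold switchEnergy at h
  exact h

end Vale.Agent.Results.P335.AllDegreeSequences
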