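import Vale.Agent.Lib.P335.BipChain.Mix

/-!
# P335: the bipartite switch chain for ALL row and column sums

`R` is a finite set of rows, `C` a finite set of columns, `r : R → ℕ` and `c : C → ℕ` are
arbitrary prescribed row and column sums, and `tables r c` is the set of 0/1 matrices
`M : R → C → Bool` with these sums (the bipartite graphs with these degrees).

1. Poincare inequality with constant 2 for the switch graph on `tables r c`: for every real
   function `f`, the sum of the squared deviations of `f` from its mean is at most one quarter of
   the sum of `(f M - f N) ^ 2` over the ordered pairs `(M, N)` joined by one switch.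
2. The lazy switch chain (probability 1/2 stay; otherwise a uniform pair of rows, a uniform pair
   of columns and a uniform diagonal of that block, switched if possible) is within total
   variation distance 1/4 of the uniform distribution, from every start, at every time
   `t ≥ (|R| * |C|) ^ 3`.
-/

namespace Vale.Agent.Results.P335.BipartiteSwitchGap

open Vale.Agent.Lib.P335.BipChain
open scoped Classical

theorem result {R C : Type*} [Fintype R] [Fintype C] (r : R → ℕ) (c : C → ℕ) :
    (∀ f : (R → C → Bool) → ℝ,
      ∑ M ∈ tables r c, (f M - (∑ N ∈ tables r c, f N) / ((tables r c).card : ℝ)) ^ 2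
        ≤ (1 / 4) * ∑ M ∈ tables r c, ∑ N ∈ tables r c,
            if IsSwitch M N then (f M - f N) ^ 2 else 0) ∧
    (∀ t : ℕ, (Fintype.card R * Fintype.card C) ^ 3 ≤ t →
      ∀ M ∈ tables r c, tvUniform r c (dist r c M t) ≤ 1 / 4) :=
  ⟨tables_poincare r c, mixed_poly r c⟩

end Vale.Agent.Results.P335.BipartiteSwitchGap
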