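import Mathlib
import Vale.Agent.Lib.P335.Defs
import Vale.Agent.Lib.P335.QuarticDefs
import Vale.Agent.Lib.P335.Quartic
import Vale.Agent.Lib.P335.QuarticMix

namespace Vale.Agent.Results.P335.QuarticLowerBound

open Vale.Agent.Lib.P335

/-- For the graphical degree vector `(2,2,1,1,0,...,0)` on `n ≥ 4` vertices the switch chain has
total variation distance exactly `(1 - 1/(6 C(n,4)))^t / 2` from uniform after `t` steps, from
every start; hence it is not mixed before time `3 C(n,4)`, it is mixed at time `5 C(n,4)`, and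
`3 C(n,4) ≤ t_mix ≤ 5 C(n,4)`.  Consequently every function `p` with `t_mix(d) ≤ p(n)` for all
graphical `d` on `n ≥ 4` vertices satisfies `p(n) ≥ 3 C(n,4) = n(n-1)(n-2)(n-3)/8`. -/
theorem result :
    (∀ n : ℕ, 4 ≤ n →
      (realizations (dvec n)).Nonempty ∧
      (∀ G ∈ realizations (dvec n), ∀ t : ℕ,
        tvUniform (dvec n) (dist (dvec n) G t) = (1 - 2 * moveProb n) ^ t / 2) ∧
      (∀ t : ℕ, t < 3 * n.choose 4 → ¬ IsMixedAt (dvec n) t) ∧
      IsMixedAt (dvec n) (5 * n.choose 4) ∧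
      3 * n.choose 4 ≤ tmix (dvec n) ∧ tmix (dvec n) ≤ 5 * n.choose 4) ∧
    (∀ p : ℕ → ℕ,
      (∀ n : ℕ, 4 ≤ n → ∀ d : Fin n → ℕ, (realizations d).Nonempty → tmix d ≤ p n) →
      ∀ n : ℕ, 4 ≤ n → 3 * n.choose 4 ≤ p n) := by
  refine ⟨fun n hn => ⟨realizations_dvec_nonempty hn, fun G hG t => tv_dvec hn G hG t,
    fun t ht => not_mixed_dvec hn t ht, mixed_dvec hn, (tmix_dvec hn).1, (tmix_dvec hn).2⟩, ?_⟩
  intro p hp n hn
  exact le_trans (tmix_dvec hn).1 (hp n hn (dvec n) (realizations_dvec_nonempty hn))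

end Vale.Agent.Results.P335.QuarticLowerBound
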