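import Vale.Agent.Lib.P335.Split.Main
import Vale.Agent.Lib.P335.Bip.Main

/-!
# P335: the switch chain mixes in time `n ^ 6` on every split degree vector

Let `n ≥ 4` and let `d` be the degree vector of a split graph `G0` on `Fin n`: some vertex set `A`
is a clique of `G0` and its complement is an independent set of `G0` (every bipartite degree
pattern between `A` and its complement occurs in this way).  Then

* the switch graph on the realizations of `d` has spectral gap at least `2`: for every mean-zero
  `u`, the sum of `u ^ 2` is at most one quarter of the sum, over ordered pairs of realizations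
  joined by a switch, of the squared difference of `u`;
* the lazy switch chain of the problem is within total variation distance `1/4` of uniform, from
  every start, at every time `t ≥ n ^ 6`; in particular `tmix d ≤ n ^ 6`.

The proof goes through 0/1 matrices with prescribed row and column sums (rows `A`, columns the
complement of `A`): the pair projections of disjoint row pairs commute, the three-row inequality
holds for all margins, and a finite-size criterion gives the gap for all margins.
-/

namespace Vale.Agent.Results.P335.SplitRapidMixing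

open Vale.Agent.Lib.P335
open scoped Classical

/-- A sum over all elements does not depend on the chosen `Fintype` structure. -/
theorem sum_univ_inst {α : Type} (i1 i2 : Fintype α) (g : α → ℝ) :
    @Finset.sum α ℝ _ (@Finset.univ α i1) g = @Finset.sum α ℝ _ (@Finset.univ α i2) g := by
  rw [Subsingleton.elim i1 i2]

theorem result :
    ∀ (n : ℕ), 4 ≤ n → ∀ (A : Finset (Fin n)) (G0 : SimpleGraph (Fin n)),
      (∀ a ∈ A, ∀ b ∈ A, a ≠ b → G0.Adj a b) →
      (∀ a, a ∉ A → ∀ b, b ∉ A → ¬ G0.Adj a b) →
      ∀ d : Fin n → ℕ, G0 ∈ realizations d →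
        (∀ u : SimpleGraph (Fin n) → ℝ, ∑ H ∈ realizations d, u H = 0 →
          ∑ H ∈ realizations d, (u H) ^ 2 ≤
            (1 / 4) * ∑ G ∈ realizations d, ∑ H ∈ realizations d,
              if IsSwitch G H then (u G - u H) ^ 2 else 0) ∧
        (∀ t : ℕ, n ^ 6 ≤ t → IsMixedAt d t) ∧ tmix d ≤ n ^ 6 := by
  intro n hn A G0 h1 h2 d hG0
  have h0 : IsSplit A G0 := ⟨h1, h2⟩
  have hS : ∀ f : (Fin n → Fin n → Bool) → ℝ,
      ∑ M, (f M - Bip.avg A Aᶜ f M) ^ 2
        ≤ ∑ p ∈ A.powersetCard 2, ∑ q ∈ Aᶜ.powersetCard 2, ∑ M, (f M - Bip.avg p q f M) ^ 2 := by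
    intro f
    have h := Bip.switch_poincare A Aᶜ f
    refine le_trans (le_of_eq (sum_univ_inst _ _ _)) (le_trans h (le_of_eq ?_))
    exact Finset.sum_congr rfl (fun p _ => Finset.sum_congr rfl (fun q _ => sum_univ_inst _ _ _))
  have hE : ∀ u : SimpleGraph (Fin n) → ℝ, ∑ H ∈ realizations d, u H = 0 →
      ∑ H ∈ realizations d, (u H) ^ 2 ≤ (1 / 4) * switchEnergy d u :=
    fun u hu => sum_sq_le_switchEnergy h0 hG0 hS u hu
  have hM := split_mixed hn h0 hG0 hS
  refine ⟨fun u hu => ?_, hM⟩
  have := hE u hu
  unfold switchEnergy at this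
  exact this

end Vale.Agent.Results.P335.SplitRapidMixing
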